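import Vale.Agent.P323.H728.Thm9
import Vale.Agent.P323.H845.Perfect
import Vale.Agent.P323.Z9.BBGlue

/-!
# Theorem 9
-/

namespace Vale.Agent.P323.Z

open CategoryTheory NameTheory

variable {D : Type 1} [Category.{1} D]

theorem stepOne [Tw D] : StepOneStatement D :=
  fun _ _ _ _ h _ _ _ hpb => SEq.step1 h hpb

theorem perfect_of [Tw D] {B : CObj D} {E : SEq B} {i : Ordinal.{0}} {r : Col B.x}
    (h : H845.Perfect E i r) : Perfect E i r where
  le := h.le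
  sm := h.sm
  obj := h.obj
  dom z := h.dom z.2
  stab r' h1 h2 {_} s hs := (h.stab r' h1 h2 s).1 hs
  gen s hs := by
    obtain ⟨d, e, h1, h2, g, rfl⟩ := h.gen s hs
    exact ⟨d, g, h1, h2⟩
  dec s t hs ht es et := h.dec s t hs ht es et

/-- Theorem 9, above a given small colouring. -/
theorem theorem9_above [Tw D] {B : CObj D} (E : SEq B) (i₀ : Ordinal.{0}) (r₁ : Col B.x)
    (hle : Col.Le B.p r₁) (hsm : Col.Sm r₁) :
    ∃ (i : Ordinal.{0}) (r : Col B.x) (P : PG D i B.x),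
      i₀ ≤ i ∧ Order.IsSuccLimit i ∧ Col.Le r₁ r ∧ Perfect E i r ∧ Presented E i r P := by
  obtain ⟨i, h1, h2, r, h3, h4⟩ := H845.exists_perfect_above E i₀ r₁ hle hsm
  exact ⟨i, r, T9.pg stepOne (perfect_of h4), h1, h2, h3, perfect_of h4,
    T9.presented stepOne (perfect_of h4)⟩

/-- Theorem 9. -/
theorem theorem9 [Tw D] {B : CObj D} (E : SEq B) (i₀ : Ordinal.{0}) :
    ∃ (i : Ordinal.{0}) (r : Col B.x) (P : PG D i B.x),
      i₀ ≤ i ∧ Order.IsSuccLimit i ∧ Perfect E i r ∧ Presented E i r P := by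
  obtain ⟨i, r, P, h1, h2, -, h3, h4⟩ := theorem9_above E i₀ B.p (Col.Le.refl _) B.sm
  exact ⟨i, r, P, h1, h2, h3, h4⟩

/-- The black box of section 11. -/
theorem thm9Stmt [Tw D] [NameTheory (CObj D)] : P11.Thm9Stmt D := by
  intro B y c γ
  obtain ⟨i₀, hi₀⟩ := TwBase.mem_ex γ
  obtain ⟨i, r, P, h1, -, h2, h3⟩ := theorem9 (seqFeqγ y γ) i₀
  refine ⟨i, r, P, h2.le, h2.sm, TwBase.mem_mono h1 hi₀, fun {d s t} h => ?_,
    fun {W} e₁ e₂ hr₁ hr₂ => h3.iff e₁ e₂ hr₁ hr₂⟩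
  exact h3.inv γ (fun W e₁ e₂ _ _ h => h.1) h

end Vale.Agent.P323.Z
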