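import Vale.Agent.P323.K9.Defs

/-!
# Theorem 9 at a perfect colouring

If `r` is a perfect colouring for the stable equivalence `E` at stage `i`, then `E` over `r` is
presented by a pseudogroup of stage `i`.
-/

namespace Vale.Agent.P323.Z

open CategoryTheory

namespace T9

variable {D : Type 1} [Category.{1} D]

/-- `B` with the colouring `r` -/
@[reducible] def rc (B : CObj D) (r : Col B.x) (sm : Col.Sm r) : CObj D := ⟨B.x, r, sm⟩

/-- a morphism out of the recoloured object, seen as a morphism out of `B` -/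
def un {B : CObj D} {r : Col B.x} {sm : Col.Sm r} (le : Col.Le B.p r) {W : CObj D}
    (e : rc B r sm ⟶ W) : B ⟶ W :=
  ⟨e.u, le.trans (cle e)⟩

@[simp] theorem un_u {B : CObj D} {r : Col B.x} {sm : Col.Sm r} (le : Col.Le B.p r) {W : CObj D}
    (e : rc B r sm ⟶ W) : (un le e).u = e.u := rfl

theorem un_comp {B : CObj D} {r : Col B.x} {sm : Col.Sm r} (le : Col.Le B.p r) {W W' : CObj D}
    (e : rc B r sm ⟶ W) (k : W ⟶ W') : un le (e ≫ k) = un le e ≫ k := chom_ext rfl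

theorem un_over {B : CObj D} {r : Col B.x} {sm : Col.Sm r} (le : Col.Le B.p r) {W : CObj D}
    (e : rc B r sm ⟶ W) : Col.Le r (Col.pull (un le e).u W.p) := cle e

theorem over_comp {B W W' : CObj D} {r : Col B.x} (e : B ⟶ W)
    (h : Col.Le r (Col.pull e.u W.p)) (k : W ⟶ W') :
    Col.Le r (Col.pull (e ≫ k).u W'.p) := by
  rw [comp_u, Col.pull_comp]
  exact h.trans ((cle k).pull e.u)

section

variable [Tw D]

/-- amalgam of two coloured objects along plain morphisms, when the colours on the common part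
agree up to inclusion -/
theorem amal {z : D} {X Y : CObj D} (f : z ⟶ X.x) (g : z ⟶ Y.x)
    (hc : Col.Le (Col.pull g Y.p) (Col.pull f X.p)) :
    ∃ (W : CObj D) (j₁ : X ⟶ W) (j₂ : Y ⟶ W), IsPB f g j₁.u j₂.u := by
  obtain ⟨i, hf, hg⟩ := mem_two f g
  have hcomp : Col.Compat (Col.pull f X.p) (Col.pull g Y.p) :=
    Col9.compat_of_le (Col.Le.refl _) hc
  exact ⟨cam i X Y f g hf hg, camL i X Y f g hf hg, camR i X Y f g hf hg hcomp,
    Tw.K1 i f g hf hg⟩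

/-- amalgam of two coloured objects over a coloured object, one map conservative -/
theorem amalc {X Y Z : CObj D} (f : X ⟶ Y) (g : X ⟶ Z) (hg : Cons g) :
    ∃ (W : CObj D) (j₁ : Y ⟶ W) (j₂ : Z ⟶ W), f ≫ j₁ = g ≫ j₂ ∧ IsPB f.u g.u j₁.u j₂.u := by
  obtain ⟨W, j₁, j₂, h⟩ := amal (X := Y) (Y := Z) f.u g.u
    (by rw [show Col.pull g.u Z.p = X.p from hg]; exact cle f)
  exact ⟨W, j₁, j₂, chom_ext h.1, h⟩

/-- two copies of `(b, r)` glued along `(s, t)`: both legs are conservative -/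
theorem glue2 {B : CObj D} {r : Col B.x} (sm : Col.Sm r) {d : D} (s t : d ⟶ B.x)
    (h : Col.pull s r = Col.pull t r) :
    ∃ (V : CObj D) (j₁ j₂ : rc B r sm ⟶ V), IsPB s t j₁.u j₂.u ∧ Cons j₁ ∧ Cons j₂ := by
  obtain ⟨i, hs, ht⟩ := mem_two s t
  let R := rc B r sm
  have h1 : Col.Le (Col.pull s R.p) (Col.pull t R.p) := by
    change Col.Le (Col.pull s r) (Col.pull t r)
    rw [h]; exact Col.Le.refl _
  have h2 : Col.Le (Col.pull t R.p) (Col.pull s R.p) := by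
    change Col.Le (Col.pull t r) (Col.pull s r)
    rw [h]; exact Col.Le.refl _
  have hcomp : Col.Compat (Col.pull s R.p) (Col.pull t R.p) :=
    Col9.compat_of_le h1 (Col.Le.refl _)
  exact ⟨cam i R R s t hs ht, camL i R R s t hs ht, camR i R R s t hs ht hcomp,
    Tw.K1 i s t hs ht, cons_camL (Y := R) (Z := R) hs ht h2,
    cons_camR (Y := R) (Z := R) hs ht hcomp h1⟩

variable {B : CObj D} {E : SEq B} {i : Ordinal.{0}} {r : Col B.x}

/-- the pullback of two related maps over `r` is a support -/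
theorem ee_of_pb (H1 : StepOneStatement D) (P : Perfect E i r) {W : CObj D} {e₁ e₂ : B ⟶ W}
    (h₁ : Col.Le r (Col.pull e₁.u W.p)) (hr : E.rel e₁ e₂) {d : D} {s t : d ⟶ B.x}
    (h : IsPB s t e₁.u e₂.u) : E.EE r s :=
  P.stab _ h₁ (Col9.sm_pull e₁.u W.sm) s (H1 E e₁ e₂ hr s t h)

/-- Transport of supports. -/
theorem transport (H1 : StepOneStatement D) (P : Perfect E i r) {W : CObj D} {e₁ e₂ : B ⟶ W}
    (h₁ : Col.Le r (Col.pull e₁.u W.p)) (h₂ : Col.Le r (Col.pull e₂.u W.p))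
    (hr : E.rel e₁ e₂) {d c : D} {s t : d ⟶ B.x} (hst : s ≫ e₁.u = t ≫ e₂.u) (u : c ⟶ d)
    (hu : E.EE r (u ≫ t)) : E.EE r (u ≫ s) := by
  obtain ⟨V, k₁, k₂, hpb⟩ := amal (X := W) (Y := rc B r P.sm) (u ≫ t ≫ e₂.u) (u ≫ t) (by
    change Col.Le (Col.pull (u ≫ t) r) (Col.pull (u ≫ t ≫ e₂.u) W.p)
    rw [← Category.assoc, Col.pull_comp (u ≫ t)]
    exact h₂.pull _)
  have e1 : E.rel (e₂ ≫ k₁) (un P.le k₂) := by
    refine hu V _ _ (over_comp _ h₂ _) (un_over _ _) ?_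
    rw [comp_u, un_u]
    have := hpb.1
    simpa using this
  have e2 : E.rel (e₁ ≫ k₁) (un P.le k₂) := E.trans (E.mono k₁ hr) e1
  refine ee_of_pb H1 P (over_comp _ h₁ _) e2 (t := u ≫ t) ⟨?_, ?_⟩
  · have := hpb.1
    rw [comp_u, un_u, ← this]
    simp only [Category.assoc]
    rw [← Category.assoc s, hst, Category.assoc]
  · intro f x₁ x₂ hx
    rw [comp_u, un_u, ← Category.assoc] at hx
    obtain ⟨w, hw1, hw2⟩ := hpb.2 _ _ hx
    refine ⟨w, mono' e₁.u ?_, hw2⟩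
    rw [← hw1]
    simp only [Category.assoc]
    rw [hst]

/-- Over a perfect `r`, two morphisms of stage `i` which are identified in an extension of `r`
have the same colours. -/
theorem pull_eq (P : Perfect E i r) {W : CObj D} {e₁ e₂ : B ⟶ W}
    (h₁ : Col.Le r (Col.pull e₁.u W.p)) (h₂ : Col.Le r (Col.pull e₂.u W.p)) {d : D}
    {s t : d ⟶ B.x} (hs : Mem i s) (ht : Mem i t) (hst : s ≫ e₁.u = t ≫ e₂.u) :
    Col.pull s r = Col.pull t r := by
  have key : ∀ {s t : d ⟶ B.x} {e₁ e₂ : B ⟶ W}, Col.Le r (Col.pull e₁.u W.p) →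
      Col.Le r (Col.pull e₂.u W.p) → Mem i s → Mem i t → s ≫ e₁.u = t ≫ e₂.u →
      Col.Le (Col.pull s r) (Col.pull t r) := by
    intro s t e₁ e₂ h₁ h₂ hs ht hst z c hz
    change r (Dn.post s z) = some c at hz
    have h3 : Mem i (z.2 ≫ s) := (P.dom (Dn.post s z)).1 (by rw [hz]; simp)
    have h4 : Mem i z.2 := TwBase.mem_div h3 hs
    have h5 : r (Dn.post t z) ≠ none := (P.dom (Dn.post t z)).2 (TwBase.mem_comp h4 ht)
    obtain ⟨c', hc'⟩ := Option.ne_none_iff_exists'.1 h5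
    have h6 : W.p (Dn.post e₁.u (Dn.post s z)) = some c := h₁ _ _ hz
    have h7 : W.p (Dn.post e₂.u (Dn.post t z)) = some c' := h₂ _ _ hc'
    rw [← Dn.post_comp, hst, Dn.post_comp, h7] at h6
    change r (Dn.post t z) = some c
    rw [hc', Option.some.inj h6]
  exact Col9.le_antisymm (key h₁ h₂ hs ht hst) (key h₂ h₁ ht hs hst.symm)

/-- the generating relation -/
structure PR (E : SEq B) (i : Ordinal.{0}) (r : Col B.x) {d : D} (s t : d ⟶ B.x) : Prop where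
  ms : Mem i s
  mt : Mem i t
  es : E.EE r s
  et : E.EE r t
  pe : Col.pull s r = Col.pull t r
  al : E.Alw r s t

theorem PR.symm {d : D} {s t : d ⟶ B.x} (h : PR E i r s t) : PR E i r t s :=
  ⟨h.mt, h.ms, h.et, h.es, h.pe.symm, h.al.symm⟩

/-- A related pair of maps over `r` identifying two supports of stage `i` gives a generator. -/
theorem PR.mk' (P : Perfect E i r) {W : CObj D} {e₁ e₂ : B ⟶ W}
    (h₁ : Col.Le r (Col.pull e₁.u W.p)) (h₂ : Col.Le r (Col.pull e₂.u W.p))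
    (hr : E.rel e₁ e₂) {d : D} {s t : d ⟶ B.x} (hs : Mem i s) (ht : Mem i t)
    (es : E.EE r s) (et : E.EE r t) (hst : s ≫ e₁.u = t ≫ e₂.u) : PR E i r s t := by
  refine ⟨hs, ht, es, et, pull_eq P h₁ h₂ hs ht hst, ?_⟩
  rcases P.dec s t hs ht es et with h | h
  · exact h
  · exact absurd hr (h W e₁ e₂ h₁ h₂ hst)

/-- Composition of generators. -/
theorem PR.comp (H1 : StepOneStatement D) (P : Perfect E i r) {d d' e : D} {s t : d ⟶ B.x}
    {s' t' : d' ⟶ B.x} {g : e ⟶ d} {g' : e ⟶ d'} (h : PR E i r s t) (h' : PR E i r s' t')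
    (hpb : IsPB g g' t s') (hg : Mem i g) (hg' : Mem i g') : PR E i r (g ≫ s) (g' ≫ t') := by
  obtain ⟨V₁, a₁, a₂, hV₁, -, ca₂⟩ := glue2 P.sm s t h.pe
  obtain ⟨V₂, b₂, b₃, hV₂, cb₂, -⟩ := glue2 P.sm s' t' h'.pe
  obtain ⟨W, j₁, j₂, hj, hW⟩ := amalc a₂ b₂ cb₂
  have r1 : E.rel (un P.le (a₁ ≫ j₁)) (un P.le (a₂ ≫ j₁)) := by
    refine h.al W _ _ (un_over _ _) (un_over _ _) ?_
    rw [un_u, un_u, comp_u, comp_u, ← Category.assoc, hV₁.1, Category.assoc]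
  have r2 : E.rel (un P.le (b₂ ≫ j₂)) (un P.le (b₃ ≫ j₂)) := by
    refine h'.al W _ _ (un_over _ _) (un_over _ _) ?_
    rw [un_u, un_u, comp_u, comp_u, ← Category.assoc, hV₂.1, Category.assoc]
  have r3 : E.rel (un P.le (a₁ ≫ j₁)) (un P.le (b₃ ≫ j₂)) := by
    rw [← hj] at r2
    exact E.trans r1 r2
  have hu : IsPB (g ≫ s) (g' ≫ t') (un P.le (a₁ ≫ j₁)).u (un P.le (b₃ ≫ j₂)).u := by
    refine ⟨?_, ?_⟩
    · have q1 : s ≫ a₁.u = t ≫ a₂.u := hV₁.1
      have q2 : s' ≫ b₂.u = t' ≫ b₃.u := hV₂.1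
      have q3 : a₂.u ≫ j₁.u = b₂.u ≫ j₂.u := hW.1
      have q4 : g ≫ t = g' ≫ s' := hpb.1
      calc (g ≫ s) ≫ (un P.le (a₁ ≫ j₁)).u = g ≫ (s ≫ a₁.u) ≫ j₁.u := by
            simp only [un_u, comp_u, Category.assoc]
        _ = (g ≫ t) ≫ a₂.u ≫ j₁.u := by rw [q1]; simp only [Category.assoc]
        _ = g' ≫ (s' ≫ b₂.u) ≫ j₂.u := by rw [q4, q3]; simp only [Category.assoc]
        _ = (g' ≫ t') ≫ (un P.le (b₃ ≫ j₂)).u := by
            rw [q2]; simp only [un_u, comp_u, Category.assoc]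
    · intro f x₁ x₃ hx
      have hx' : (x₁ ≫ a₁.u) ≫ j₁.u = (x₃ ≫ b₃.u) ≫ j₂.u := by
        simpa only [un_u, comp_u, Category.assoc] using hx
      obtain ⟨x₂, hx1, hx2⟩ := hW.2 _ _ hx'
      obtain ⟨v, hv1, hv2⟩ := hV₁.2 x₁ x₂ hx1.symm
      obtain ⟨v', hv1', hv2'⟩ := hV₂.2 x₂ x₃ hx2
      obtain ⟨w, hw1, hw2⟩ := hpb.2 v v' (by rw [hv2, hv1'])
      exact ⟨w, by rw [← Category.assoc, hw1, hv1], by rw [← Category.assoc, hw2, hv2']⟩
  exact PR.mk' P (un_over _ _) (un_over _ _) r3 (TwBase.mem_comp hg h.ms)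
    (TwBase.mem_comp hg' h'.mt) (ee_of_pb H1 P (un_over _ _) r3 hu)
    (ee_of_pb H1 P (un_over _ _) (E.symm r3) hu.symm) hu.1

/-- The pseudogroup of a perfect colouring. -/
def pg (H1 : StepOneStatement D) (P : Perfect E i r) : PG D i B.x where
  rel {d} s t := Mem i s ∧ Mem i t ∧ ∃ (e : D) (g : e ⟶ d), PR E i r (g ≫ s) (g ≫ t)
  mem h := ⟨h.1, h.2.1⟩
  one := ⟨P.obj, P.obj, B.x, 𝟙 B.x, by
    rw [Category.id_comp]
    exact ⟨P.obj, P.obj, SEq.EE.one r, SEq.EE.one r, rfl, SEq.EE.one r⟩⟩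
  symm h := ⟨h.2.1, h.1, by
    obtain ⟨e, g, hg⟩ := h.2.2
    exact ⟨e, g, hg.symm⟩⟩
  comp := by
    rintro d d' e s t s' t' g g' ⟨hs, ht, e₁, h, hh⟩ ⟨hs', ht', e₂, h', hh'⟩ hpb hg hg'
    refine ⟨TwBase.mem_comp hg hs, TwBase.mem_comp hg' ht', ?_⟩
    obtain ⟨z, p, q, hp, hq, hpq⟩ := TwBase.pb hh.mt hh'.ms
    have h1 := PR.comp H1 P hh hh' hpq hp hq
    have h2 : (p ≫ h) ≫ t = (q ≫ h') ≫ s' := by simpa using hpq.1
    obtain ⟨w, hw1, hw2⟩ := hpb.2 _ _ h2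
    refine ⟨z, w, ?_⟩
    have e1 : w ≫ g ≫ s = p ≫ h ≫ s := by rw [← Category.assoc, hw1, Category.assoc]
    have e2 : w ≫ g' ≫ t' = q ≫ h' ≫ t' := by rw [← Category.assoc, hw2, Category.assoc]
    rw [e1, e2]
    exact h1
  up := by
    rintro d e s t g hs ht hg ⟨_, _, e', h, hh⟩
    refine ⟨hs, ht, e', h ≫ g, ?_⟩
    simpa using hh

/-- Related maps over `r` identify a pair of the pseudogroup. -/
theorem exists_pair (H1 : StepOneStatement D) (P : Perfect E i r) {W : CObj D} {e₁ e₂ : B ⟶ W}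
    (h₁ : Col.Le r (Col.pull e₁.u W.p)) (h₂ : Col.Le r (Col.pull e₂.u W.p))
    (hr : E.rel e₁ e₂) : ∃ (d : D) (s t : d ⟶ B.x), PR E i r s t ∧ s ≫ e₁.u = t ≫ e₂.u := by
  classical
  -- the pairs with first component of stage `i` and second component of stage `k`
  let Q : Ordinal.{0} → Prop := fun k => ∃ (d : D) (s t : d ⟶ B.x), Mem i s ∧ Mem k t ∧
    E.EE r s ∧ E.EE r t ∧ s ≫ e₁.u = t ≫ e₂.u
  have hne : ∃ k, Q k := by
    obtain ⟨j, hj1, hj2⟩ := mem_two e₁.u e₂.u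
    obtain ⟨z, p, q, -, -, hpq⟩ := TwBase.pb hj1 hj2
    have hp : E.EE r p := ee_of_pb H1 P h₁ hr hpq
    obtain ⟨e, g, hg1, hg2⟩ := P.gen p hp
    have h3 : E.EE r (g ≫ q) := transport H1 P h₂ h₁ (E.symm hr) hpq.1.symm g hg2
    obtain ⟨k, hk⟩ := TwBase.mem_ex (g ≫ q)
    exact ⟨k, e, g ≫ p, g ≫ q, hg1, hk, hg2, h3, by
      rw [Category.assoc, Category.assoc, hpq.1]⟩
  obtain ⟨k, ⟨d, s, t, hs, ht, es, et, hst⟩, hmin⟩ :
      ∃ k, Q k ∧ ∀ k' < k, ¬ Q k' := by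
    obtain ⟨k, hk⟩ := hne
    obtain ⟨k, hk, hk'⟩ := WellFounded.has_min (wellFounded_lt (α := Ordinal.{0})) {k | Q k} ⟨k, hk⟩
    exact ⟨k, hk, fun k' h h' => hk' k' h' h⟩
  rcases le_or_gt k i with hki | hki
  · exact ⟨d, s, t, PR.mk' P h₁ h₂ hr hs (TwBase.mem_mono hki ht) es et hst, hst⟩
  · exfalso
    rcases Ordinal.zero_or_succ_or_isSuccLimit k with h0 | ⟨k', rfl⟩ | hlim
    · subst h0
      exact absurd hki (not_lt.2 zero_le)
    · have hk'k : k' < Order.succ k' := Order.lt_succ k'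
      have hik' : i ≤ k' := Order.lt_succ_iff.1 hki
      have hnt : ¬ Mem k' t := fun h => hmin k' hk'k ⟨d, s, t, hs, h, es, et, hst⟩
      obtain ⟨N⟩ := Tw.nd (i := k') t (TwBase.mem_mono hik' P.obj) ht hnt
      obtain ⟨e, g, hg1, hg2⟩ := P.gen t et
      obtain ⟨h, hh⟩ := N.N0 g (TwBase.mem_mono hik' hg1)
      have h4 : E.EE r (N.π ≫ t) := hg2.up ⟨h, by rw [← Category.assoc, hh]⟩
      have h5 : E.EE r (N.π ≫ s) := transport H1 P h₁ h₂ hr hst N.π h4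
      obtain ⟨e', v, hv1, hv2⟩ := P.gen (N.π ≫ s) h5
      have hst' : (N.π ≫ s) ≫ e₁.u = (N.π ≫ t) ≫ e₂.u := by
        rw [Category.assoc, Category.assoc, hst]
      have h6 : E.EE r (v ≫ N.π ≫ t) :=
        transport H1 P h₂ h₁ (E.symm hr) hst'.symm v hv2
      have h7 : Mem i (v ≫ N.π) := by
        refine TwBase.mem_div (g := s) ?_ hs
        rw [Category.assoc]
        exact hv1
      have h8 : Mem k' v := TwBase.mem_div (TwBase.mem_mono hik' h7) N.hπ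
      have h9 : Mem k' (v ≫ N.π ≫ t) := by
        refine TwBase.mem_comp h8 ?_
        rw [N.eq]
        exact TwBase.mem_comp N.hπ' (TwBase.mem_comp
          (TwBase.mem_mono zero_le (TwBase.ι_mem _)) N.hA)
      exact hmin k' hk'k ⟨e', v ≫ N.π ≫ s, v ≫ N.π ≫ t, hv1, h9, hv2, h6, by
        rw [Category.assoc v, hst', Category.assoc v]⟩
    · obtain ⟨k', hk', hk''⟩ := TwBase.mem_lim hlim ht
      exact hmin k' hk' ⟨d, s, t, hs, hk'', es, et, hst⟩

/-- THEOREM 9 at a perfect colouring. -/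
theorem presented (H1 : StepOneStatement D) (P : Perfect E i r) :
    Presented E i r (pg H1 P) where
  iff := by
    intro W e₁ e₂ h₁ h₂
    constructor
    · intro hr
      obtain ⟨d, s, t, h, hst⟩ := exists_pair H1 P h₁ h₂ hr
      exact ⟨d, s, t, ⟨h.ms, h.mt, d, 𝟙 d, by simpa using h⟩, hst⟩
    · rintro ⟨d, s, t, ⟨-, -, e, g, h⟩, hst⟩
      exact h.al W e₁ e₂ h₁ h₂ (by rw [Category.assoc, Category.assoc, hst])
  inv := by
    rintro c γ hγ d s t ⟨-, -, e, g, h⟩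
    obtain ⟨V, a₁, a₂, hV, -, -⟩ := glue2 P.sm (g ≫ s) (g ≫ t) h.pe
    have h1 : E.rel (un P.le a₁) (un P.le a₂) := h.al V _ _ (un_over _ _) (un_over _ _) hV.1
    obtain ⟨w, hw1, hw2⟩ := hV.2 γ γ (hγ V _ _ (un_over _ _) (un_over _ _) h1)
    exact ⟨w ≫ g, by rw [Category.assoc]; exact hw1, by rw [Category.assoc]; exact hw2⟩

end

end T9

/-- Theorem 9 at a perfect colouring, from Step 1. -/
theorem presentedStatement_of {D : Type 1} [Category.{1} D] [Tw D] (H1 : StepOneStatement D) :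
    PresentedStatement D :=
  fun _ _ _ P => ⟨T9.pg H1 P, T9.presented H1 P⟩

end Vale.Agent.P323.Z
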